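import Mathlib

/-!
# Rockafellar's theorem (bounded form)

A cyclically monotone map `T` on a set `A` of a real inner product space, bounded on `A`,
admits a convex potential `φ : E → ℝ` with `T x ∈ ∂φ(x)` for every `x ∈ A`.
-/

namespace Vale.Agent.H56

open Finset

section Rock

variable {E : Type*} [NormedAddCommGroup E] [InnerProductSpace ℝ E]

/-- The value at `z` of the chain `c = (n, p)`:
`∑_{i<n} ⟪T (p i), p (i+1) - p i⟫ + ⟪T (p n), z - p n⟫`. -/
noncomputable def chainVal (T : E → E) (c : ℕ × (ℕ → E)) (z : E) : ℝ :=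
  ∑ i ∈ range c.1, inner ℝ (T (c.2 i)) (c.2 (i + 1) - c.2 i)
    + inner ℝ (T (c.2 c.1)) (z - c.2 c.1)

theorem chainVal_combo (T : E → E) (c : ℕ × (ℕ → E)) (x y : E) (a b : ℝ) (hab : a + b = 1) :
    chainVal T c (a • x + b • y) = a * chainVal T c x + b * chainVal T c y := by
  simp only [chainVal]
  have h1 : a • x + b • y - c.2 c.1 = a • (x - c.2 c.1) + b • (y - c.2 c.1) := by
    have h2 : c.2 c.1 = a • c.2 c.1 + b • c.2 c.1 := by rw [← add_smul, hab, one_smul]
    rw [smul_sub, smul_sub]
    nth_rewrite 1 [h2]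
    abel
  rw [h1, inner_add_right, inner_smul_right, inner_smul_right]
  have hb : b = 1 - a := by linarith
  subst hb
  ring

theorem chainVal_snoc (T : E → E) (n : ℕ) (p : ℕ → E) (x z : E) :
    chainVal T (n + 1, Function.update p (n + 1) x) z
      = chainVal T (n, p) x + inner ℝ (T x) (z - x) := by
  simp only [chainVal]
  rw [Finset.sum_range_succ]
  have h1 : ∀ i ∈ range n,
      inner ℝ (T (Function.update p (n + 1) x i))
        (Function.update p (n + 1) x (i + 1) - Function.update p (n + 1) x i)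
      = inner ℝ (T (p i)) (p (i + 1) - p i) := by
    intro i hi
    have hi' : i < n := Finset.mem_range.mp hi
    rw [Function.update_of_ne (by omega), Function.update_of_ne (by omega)]
  rw [Finset.sum_congr rfl h1, Function.update_self,
    Function.update_of_ne (by omega : n ≠ n + 1)]

theorem exists_convex_potential_of_cyclic (A : Set E) (T : E → E) (R : ℝ)
    (hR : ∀ x ∈ A, ‖T x‖ ≤ R)
    (hcyc : ∀ (n : ℕ) (p : Fin (n + 1) → E), (∀ i, p i ∈ A) →
      ∑ i, inner ℝ (T (p i)) (p (i + 1) - p i) ≤ 0) :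
    ∃ φ : E → ℝ, ConvexOn ℝ Set.univ φ ∧
      ∀ x ∈ A, ∀ z, φ x + inner ℝ (T x) (z - x) ≤ φ z := by
  rcases Set.eq_empty_or_nonempty A with hA | ⟨x0, hx0⟩
  · refine ⟨fun _ => 0, convexOn_const 0 convex_univ, ?_⟩
    intro x hx
    simp [hA] at hx
  · have hbound : ∀ (c : {c : ℕ × (ℕ → E) // (∀ i, c.2 i ∈ A) ∧ c.2 0 = x0}) (z : E),
        chainVal T c.1 z ≤ R * ‖z - x0‖ := by
      rintro ⟨⟨n, p⟩, hpA, hp0⟩ z
      simp only at hpA hp0
      have h1 := hcyc n (fun i => p i) (fun i => hpA i)
      rw [Fin.sum_univ_castSucc] at h1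
      simp only [Fin.coeSucc_eq_succ, Fin.val_succ, Fin.val_castSucc, Fin.last_add_one,
        Fin.val_zero, Fin.val_last] at h1
      rw [Fin.sum_univ_eq_sum_range (fun i => inner ℝ (T (p i)) (p (i + 1) - p i)) n] at h1
      have h2 : inner ℝ (T (p n)) (z - x0) ≤ R * ‖z - x0‖ :=
        calc inner ℝ (T (p n)) (z - x0) ≤ ‖T (p n)‖ * ‖z - x0‖ := real_inner_le_norm _ _
          _ ≤ R * ‖z - x0‖ :=
            mul_le_mul_of_nonneg_right (hR _ (hpA n)) (norm_nonneg _)
      have h3 : chainVal T (n, p) z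
          = (∑ i ∈ range n, inner ℝ (T (p i)) (p (i + 1) - p i)
              + inner ℝ (T (p n)) (p 0 - p n)) + inner ℝ (T (p n)) (z - x0) := by
        simp only [chainVal]
        rw [hp0, add_assoc, ← inner_add_right]
        congr 2
        abel
      rw [h3]
      linarith
    have hbdd : ∀ z, BddAbove (Set.range
        fun c : {c : ℕ × (ℕ → E) // (∀ i, c.2 i ∈ A) ∧ c.2 0 = x0} => chainVal T c.1 z) := by
      intro z
      refine ⟨R * ‖z - x0‖, ?_⟩
      rintro _ ⟨c, rfl⟩
      exact hbound c z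
    have : Nonempty {c : ℕ × (ℕ → E) // (∀ i, c.2 i ∈ A) ∧ c.2 0 = x0} :=
      ⟨⟨(0, fun _ => x0), fun _ => hx0, rfl⟩⟩
    refine ⟨fun z => ⨆ c : {c : ℕ × (ℕ → E) // (∀ i, c.2 i ∈ A) ∧ c.2 0 = x0},
      chainVal T c.1 z, ⟨convex_univ, ?_⟩, ?_⟩
    · intro x _ y _ a b ha hb hab
      apply ciSup_le
      intro c
      rw [chainVal_combo T c.1 x y a b hab]
      simp only [smul_eq_mul]
      exact add_le_add (mul_le_mul_of_nonneg_left (le_ciSup (hbdd x) c) ha)
        (mul_le_mul_of_nonneg_left (le_ciSup (hbdd y) c) hb)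
    · intro x hx z
      have key : (⨆ c : {c : ℕ × (ℕ → E) // (∀ i, c.2 i ∈ A) ∧ c.2 0 = x0}, chainVal T c.1 x)
          ≤ (⨆ c : {c : ℕ × (ℕ → E) // (∀ i, c.2 i ∈ A) ∧ c.2 0 = x0}, chainVal T c.1 z)
            - inner ℝ (T x) (z - x) := by
        apply ciSup_le
        rintro ⟨⟨n, p⟩, hpA, hp0⟩
        simp only at hpA hp0
        have hmem : (∀ i, Function.update p (n + 1) x i ∈ A) ∧
            Function.update p (n + 1) x 0 = x0 := by
          refine ⟨fun i => ?_, ?_⟩
          · by_cases hi : i = n + 1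
            · subst hi
              rw [Function.update_self]
              exact hx
            · rw [Function.update_of_ne hi]
              exact hpA i
          · rw [Function.update_of_ne (by omega)]
            exact hp0
        have h4 := le_ciSup (hbdd z) ⟨(n + 1, Function.update p (n + 1) x), hmem⟩
        simp only at h4
        rw [chainVal_snoc] at h4
        linarith
      simp only
      linarith

end Rock

end Vale.Agent.H56
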